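import Vale.Agent.P088.R2.H354.Spec3

/-!
# The local two-metric theorem, normalised: the centre of the touching ball is `0`
-/

open MeasureTheory Set
open scoped ContDiff Matrix

noncomputable section

namespace Vale.Agent.P088.HY.T3

open Vale.Agent.P088.LR

variable {n : ℕ}

/-- The first basis vector. -/
def e0 (n : ℕ) : V n := fun i => if i.val = 0 then 1 else 0

/-- The normalised situation: `s₁`, `s₂` near `1` everywhere, equal to `1` off the ball of radius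
`32`, divergence free in the chart, the ball of radius `24`; the matched set `G` contains the unit
ball. -/
structure Nrm (K : ℕ) (ε : ℝ) (s₁ s₂ : MF n) (G : Set (V n)) : Prop where
  oG : IsOpen G
  b1 : Eb 0 1 ⊆ G
  sm₁ : SmM s₁
  sm₂ : SmM s₂
  sy₁ : ∀ x, (s₁ x).IsSymm
  sy₂ : ∀ x, (s₂ x).IsSymm
  cl₁ : ∀ i j, Cl K ε (fun x => s₁ x i j - (1 : Matrix (Fin n) (Fin n) ℝ) i j)
  cl₂ : ∀ i j, Cl K ε (fun x => s₂ x i j - (1 : Matrix (Fin n) (Fin n) ℝ) i j)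
  of₁ : ∀ x ∉ Eb (0 : V n) 32, s₁ x = 1
  of₂ : ∀ x ∉ Eb (0 : V n) 32, s₂ x = 1
  dv₁ : ∀ x ∈ Eb (0 : V n) 24, ∀ j, ∑ i, pd i (fun y => s₁ y i j) x = 0
  dv₂ : ∀ x ∈ Eb (0 : V n) 24, ∀ j, ∑ i, pd i (fun y => s₂ y i j) x = 0
  eq : ∀ x ∈ G ∩ Eb 0 24, s₂ x = s₁ x

/-- **CORE3n**, the normalised local two-metric theorem: `s₁` and `s₂` agree near the touching
point `e0`. -/
def RowCORE3n : Prop := ∀ n : ℕ, 3 ≤ n → ∃ (K : ℕ) (ε : ℝ), 0 < ε ∧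
  ∀ (s₁ s₂ : MF n) (G : Set (V n)), Nrm K ε s₁ s₂ G → Stp (Eb 0 24) G s₁ s₂ →
  ∃ δ : ℝ, 0 < δ ∧ ∀ x ∈ Eb (e0 n) δ, s₂ x = s₁ x

/-- **NORM.** -/
def RowNORM : Prop := RowCORE3n → RowCORE3

/-! ## The inversion `x ↦ x / |x|²` -/

/-- The inversion. -/
def iv (x : V n) : V n := fun i => x i / sq x

/-- The reflection `1 - 2 x xᵀ / |x|²`. -/
def rf (x : V n) : Matrix (Fin n) (Fin n) ℝ :=
  fun i j => (1 : Matrix (Fin n) (Fin n) ℝ) i j - 2 * x i * x j / sq x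

/-- The transformed tensor (for `y ≠ 0`). -/
def ks (s : MF n) : MF n := fun y => rf y * s (iv y) * rf y

/-- `∑ᵢ ∂ᵢ (∑ⱼ s_ij ∂ⱼ f)`. -/
def Ldv (s : MF n) (f : V n → ℝ) (x : V n) : ℝ := ∑ i, pd i (fun y => ∑ j, s y i j * pd j f y) x

/-- `|x|^(2 - n)`. -/
def nw (n : ℕ) (x : V n) : ℝ := (√(sq x) ^ (n - 2))⁻¹

/-- The potential of the transformed operator (for `y ≠ 0`). -/
def kv (s : MF n) (y : V n) : ℝ := -((nw n y)⁻¹ * Ldv (ks s) (nw n) y)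

/-- **KEL.** The transformed operator `u ↦ div (s* ∇u) + v u`: its coefficients are smooth and
near those of the Laplacian, and it is the conjugate of the operator of `s` under the Kelvin
transform. -/
def RowKEL : Prop := ∀ (n : ℕ), 3 ≤ n → ∀ K : ℕ, ∃ C : ℝ, 0 < C ∧ ∀ (s : MF n) (ε : ℝ), SmM s →
  (∀ x, (s x).IsSymm) → 0 ≤ ε → ε ≤ 1 →
  (∀ i j, Cl (K + 2) ε (fun x => s x i j - (1 : Matrix (Fin n) (Fin n) ℝ) i j)) →
  (∀ x ∉ Eb (0 : V n) 32, s x = 1) →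
  (∃ (s' : MF n) (v' : V n → ℝ), SmM s' ∧ ContDiff ℝ ∞ v' ∧ (∀ x, (s' x).IsSymm) ∧
    (∀ y ∈ Eb (0 : V n) (5 / 4), y ≠ 0 → s' y = ks s y ∧ v' y = kv s y) ∧
    (∀ i j, Cl K (C * ε) (fun x => s' x i j - (1 : Matrix (Fin n) (Fin n) ℝ) i j)) ∧
    Cl K (C * ε) v' ∧ (∀ y ∉ Eb (0 : V n) 2, s' y = 1 ∧ v' y = 0)) ∧
  ∀ (U : Set (V n)) (u : V n → ℝ), IsOpen U → (∀ y ∈ U, y ≠ 0) → ContDiffOn ℝ ∞ u U →
    ∀ y ∈ U, Ldv s (fun x => nw n x * u (iv x)) (iv y) =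
      (nw n y)⁻¹ * sq y ^ 2 * (Ldv (ks s) u y + kv s y * u y)

end Vale.Agent.P088.HY.T3
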