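import Vale.Agent.P088.R2.H558.Spec

/-!
# The local two-metric theorem: the interface between the manifold and `V n`
-/

open MeasureTheory Set
open scoped ContDiff Matrix

noncomputable section

namespace Vale.Agent.P088.HY.T3

open Vale.Agent.P088.LR

variable {n : ℕ}

/-- The transfer of finite families (weak form). `D` is the chart, `G` the open subset of the
matched points (or the outside of the manifold, at a boundary point). For a finite family `f` of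
test functions in `D` with `L₁ f = h₁ + h₂`, `h₁` supported in `G`, there are families `dv`
(the gradients off `G` of solutions `v` of `L₁ v = 0`) and `w` (`v + w` is the transferred
solution of `L₂ (v + w) = 0`, `w = 0` on `G`), with bounds for all combinations. -/
def Stp (D G : Set (V n)) (s₁ s₂ : MF n) : Prop :=
  ∃ C₀ : ℝ, 0 ≤ C₀ ∧ ∀ (d : ℕ) (f h₁ h₂ : Fin d → V n → ℝ),
    (∀ q, ContDiff ℝ ∞ (f q)) → (∀ q, HasCompactSupport (f q)) → (∀ q, tsupport (f q) ⊆ D) →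
    (∀ q, ContDiff ℝ ∞ (h₁ q)) → (∀ q, HasCompactSupport (h₁ q)) →
    (∀ q, tsupport (h₁ q) ⊆ G ∩ D) →
    (∀ q, ContDiff ℝ ∞ (h₂ q)) → (∀ q, HasCompactSupport (h₂ q)) → (∀ q, tsupport (h₂ q) ⊆ D) →
    (∀ q, ∀ x ∈ D, Lv s₁ (f q) x = h₁ q x + h₂ q x) → ∀ ε : ℝ, 0 < ε →
    ∃ (w : Fin d → V n → ℝ) (dv : Fin d → Fin n → V n → ℝ),
      (∀ q, ContDiffOn ℝ 1 (w q) D) ∧ (∀ q, ∀ x ∈ G ∩ D, w q x = 0) ∧
      (∀ q, MemLp (w q) 2 (volume.restrict D)) ∧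
      (∀ q i, MemLp (pd i (w q)) 2 (volume.restrict D)) ∧
      (∀ q i, MemLp (dv q i) 2 (volume.restrict (D \ G))) ∧
      (∀ q, ∀ φ : V n → ℝ, ContDiff ℝ ∞ φ → HasCompactSupport φ → tsupport φ ⊆ D →
        (∫ x in D, ∑ i, ∑ j, s₂ x i j * (pd i (w q) x * pd j φ x)) =
          ∫ x in D \ G, ∑ i, ∑ j, (s₁ x i j - s₂ x i j) * (dv q i x * pd j φ x)) ∧
      ∀ c : Fin d → ℝ,
        (∫ x in D \ G, ∑ i, (∑ q, c q * (dv q i x - pd i (f q) x)) ^ 2) ≤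
          C₀ * (∫ x in D, (∑ q, c q * h₂ q x) ^ 2) + ε * (∑ q, c q ^ 2) ∧
        (∫ x in D, ((∑ q, c q * w q x) ^ 2 + ∑ i, (∑ q, c q * pd i (w q) x) ^ 2)) ≤
          C₀ * ((∫ x in D \ G, ((∑ q, c q * f q x) ^ 2 + ∑ i, (∑ q, c q * pd i (f q) x) ^ 2)) +
            (∫ x in D, (∑ q, c q * h₂ q x) ^ 2)) + ε * (∑ q, c q ^ 2)

/-- The Euclidean ball about `a`. -/
def Eb (a : V n) (R : ℝ) : Set (V n) := {x | sq (x - a) < R ^ 2}

/-- **CORE3**, the local two-metric theorem in a chart: `G` is the open set of the matched points,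
it contains a ball touching `0`. -/
def RowCORE3 : Prop := ∀ n : ℕ, 3 ≤ n → ∀ (s₁ s₂ : MF n) (R r : ℝ) (a : V n) (G : Set (V n)),
  0 < R → 0 < r → sq a = r ^ 2 → IsOpen G → Eb a r ∩ Eb 0 R ⊆ G →
  (∀ i j, ContDiffOn ℝ ∞ (fun x => s₁ x i j) (Eb 0 R)) →
  (∀ i j, ContDiffOn ℝ ∞ (fun x => s₂ x i j) (Eb 0 R)) →
  (∀ x ∈ Eb (0 : V n) R, (s₁ x).PosDef) → (∀ x ∈ Eb (0 : V n) R, (s₂ x).PosDef) →
  (∀ x ∈ Eb (0 : V n) R, ∀ j, ∑ i, pd i (fun y => s₁ y i j) x = 0) →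
  (∀ x ∈ Eb (0 : V n) R, ∀ j, ∑ i, pd i (fun y => s₂ y i j) x = 0) →
  (∀ x ∈ G ∩ Eb 0 R, s₂ x = s₁ x) → Stp (Eb 0 R) G s₁ s₂ →
  ∃ δ : ℝ, 0 < δ ∧ ∀ x ∈ Eb (0 : V n) δ, s₂ x = s₁ x

end Vale.Agent.P088.HY.T3
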